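import Mathlib

/-!
# The convolution ring of absolutely summable complex functions on a group

`L1 G` is the set of functions `a : G → ℂ` with `∑ ‖a g‖ < ∞`, with pointwise addition and
convolution `(a * b) g = ∑' h, a h * b (h⁻¹ * g)`.
-/

open scoped BigOperators

set_option linter.unusedSectionVars false

namespace Vale.Agent.Lib.P184

variable {G : Type*} [Group G]

/-- absolutely summable complex functions on `G` -/
structure L1 (G : Type*) where
  /-- the underlying function -/
  toFun : G → ℂ
  /-- absolute summability -/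
  summable_norm : Summable (fun g => ‖toFun g‖)

namespace L1

instance : CoeFun (L1 G) (fun _ => G → ℂ) := ⟨L1.toFun⟩

@[ext] theorem ext {a b : L1 G} (h : ∀ g, a g = b g) : a = b := by
  cases a
  cases b
  congr
  funext g
  exact h g

theorem summable (a : L1 G) : Summable (fun g => a g) := a.summable_norm.of_norm

/-- the `ℓ¹` norm -/
noncomputable def nrm (a : L1 G) : ℝ := ∑' g, ‖a g‖

theorem nrm_nonneg (a : L1 G) : 0 ≤ nrm a := tsum_nonneg fun _ => norm_nonneg _

theorem norm_apply_le (a : L1 G) (g : G) : ‖a g‖ ≤ nrm a :=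
  a.summable_norm.le_tsum g fun _ _ => norm_nonneg _

/-- the shear equivalence `(h, g) ↦ (h, h⁻¹ * g)` -/
def shear : G × G ≃ G × G where
  toFun p := (p.1, p.1⁻¹ * p.2)
  invFun p := (p.1, p.1 * p.2)
  left_inv p := by simp
  right_inv p := by simp

theorem summable_conv2_norm (a b : L1 G) :
    Summable (fun p : G × G => ‖a p.1 * b (p.1⁻¹ * p.2)‖) := by
  have h := Summable.mul_norm a.summable_norm b.summable_norm
  exact (shear (G := G)).summable_iff.mpr h

theorem summable_conv2 (a b : L1 G) :
    Summable (fun p : G × G => a p.1 * b (p.1⁻¹ * p.2)) :=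
  (summable_conv2_norm a b).of_norm

theorem summable_conv_fiber_norm (a b : L1 G) (g : G) :
    Summable (fun h => ‖a h * b (h⁻¹ * g)‖) :=
  (summable_conv2_norm a b).prod_symm.prod_factor g

theorem summable_conv_fiber (a b : L1 G) (g : G) : Summable (fun h => a h * b (h⁻¹ * g)) :=
  (summable_conv_fiber_norm a b g).of_norm

/-- convolution -/
noncomputable def conv (a b : L1 G) : L1 G where
  toFun g := ∑' h, a h * b (h⁻¹ * g)
  summable_norm := by
    have h1 := (summable_conv2_norm a b).prod_symm.prod
    refine Summable.of_nonneg_of_le (fun g => norm_nonneg _) (fun g => ?_) h1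
    exact norm_tsum_le_tsum_norm (summable_conv_fiber_norm a b g)

theorem conv_apply (a b : L1 G) (g : G) : conv a b g = ∑' h, a h * b (h⁻¹ * g) := rfl

theorem conv_assoc (a b c : L1 G) : conv (conv a b) c = conv a (conv b c) := by
  ext g
  show ∑' x, (∑' h, a h * b (h⁻¹ * x)) * c (x⁻¹ * g)
    = ∑' h, a h * ∑' y, b y * c (y⁻¹ * (h⁻¹ * g))
  have hΦ : Summable (Function.uncurry fun (h x : G) => a h * b (h⁻¹ * x) * c (x⁻¹ * g)) := by
    refine Summable.of_norm_bounded ((summable_conv2_norm a b).mul_right (nrm c)) ?_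
    rintro ⟨h, x⟩
    simp only [Function.uncurry]
    rw [norm_mul (a h * b (h⁻¹ * x))]
    exact mul_le_mul_of_nonneg_left (norm_apply_le c _) (norm_nonneg _)
  calc ∑' x, (∑' h, a h * b (h⁻¹ * x)) * c (x⁻¹ * g)
      = ∑' x, ∑' h, a h * b (h⁻¹ * x) * c (x⁻¹ * g) := by
        congr 1
        funext x
        rw [tsum_mul_right]
    _ = ∑' h, ∑' x, a h * b (h⁻¹ * x) * c (x⁻¹ * g) := hΦ.tsum_comm
    _ = ∑' h, ∑' y, a h * b y * c (y⁻¹ * (h⁻¹ * g)) := by
        congr 1
        funext h
        rw [← (Equiv.mulLeft h).tsum_eq]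
        congr 1
        funext y
        simp [mul_assoc]
    _ = ∑' h, a h * ∑' y, b y * c (y⁻¹ * (h⁻¹ * g)) := by
        congr 1
        funext h
        rw [← tsum_mul_left]
        congr 1
        funext y
        rw [mul_assoc]

/-! ### Pointwise operations -/

instance : Zero (L1 G) := ⟨⟨fun _ => 0, by simp [summable_zero]⟩⟩

instance : Add (L1 G) :=
  ⟨fun a b => ⟨fun g => a g + b g,
    Summable.of_nonneg_of_le (fun _ => norm_nonneg _) (fun _ => norm_add_le _ _)
      (a.summable_norm.add b.summable_norm)⟩⟩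

instance : Neg (L1 G) := ⟨fun a => ⟨fun g => -a g, by simpa using a.summable_norm⟩⟩

open Classical in
noncomputable instance : One (L1 G) :=
  ⟨⟨fun g => if g = 1 then 1 else 0, by
    have h : (fun g : G => ‖(if g = 1 then (1 : ℂ) else 0)‖) = fun g => if g = 1 then (1 : ℝ) else 0 := by
      funext g
      split_ifs <;> simp
    rw [h]
    exact (hasSum_ite_eq (1 : G) (1 : ℝ)).summable⟩⟩

noncomputable instance : Mul (L1 G) := ⟨conv⟩

@[simp] theorem zero_apply (g : G) : (0 : L1 G) g = 0 := rfl
@[simp] theorem add_apply (a b : L1 G) (g : G) : (a + b) g = a g + b g := rfl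
@[simp] theorem neg_apply (a : L1 G) (g : G) : (-a) g = -a g := rfl
open Classical in
theorem one_apply (g : G) : (1 : L1 G) g = if g = 1 then 1 else 0 := rfl
theorem mul_apply (a b : L1 G) (g : G) : (a * b) g = ∑' h, a h * b (h⁻¹ * g) := rfl

theorem one_conv (a : L1 G) : (1 : L1 G) * a = a := by
  ext g
  rw [mul_apply, tsum_eq_single (1 : G)]
  · simp [one_apply]
  · intro h hh
    simp [one_apply, hh]

theorem conv_one (a : L1 G) : a * (1 : L1 G) = a := by
  ext g
  rw [mul_apply, tsum_eq_single g]
  · simp [one_apply]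
  · intro h hh
    have : h⁻¹ * g ≠ 1 := by
      intro h1
      apply hh
      have := eq_of_inv_mul_eq_one h1
      exact this
    simp [one_apply, this]

theorem conv_add (a b c : L1 G) : a * (b + c) = a * b + a * c := by
  ext g
  rw [add_apply, mul_apply, mul_apply, mul_apply,
    ← (summable_conv_fiber a b g).tsum_add (summable_conv_fiber a c g)]
  congr 1
  funext h
  rw [add_apply, mul_add]

theorem add_conv (a b c : L1 G) : (a + b) * c = a * c + b * c := by
  ext g
  rw [add_apply, mul_apply, mul_apply, mul_apply,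
    ← (summable_conv_fiber a c g).tsum_add (summable_conv_fiber b c g)]
  congr 1
  funext h
  rw [add_apply, add_mul]

noncomputable instance : Ring (L1 G) where
  add := (· + ·)
  add_assoc a b c := by ext g; simp [add_assoc]
  zero := 0
  zero_add a := by ext g; simp
  add_zero a := by ext g; simp
  nsmul := nsmulRec
  add_comm a b := by ext g; simp [add_comm]
  mul := (· * ·)
  left_distrib := conv_add
  right_distrib := add_conv
  zero_mul a := by ext g; simp [mul_apply]
  mul_zero a := by ext g; simp [mul_apply]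
  mul_assoc := conv_assoc
  one := 1
  one_mul := one_conv
  mul_one := conv_one
  neg := Neg.neg
  zsmul := zsmulRec
  neg_add_cancel a := by ext g; simp

@[simp] theorem sub_apply (a b : L1 G) (g : G) : (a - b) g = a g - b g := by
  rw [sub_eq_add_neg, add_apply, neg_apply, sub_eq_add_neg]

/-! ### The norm -/

theorem nrm_add_le (a b : L1 G) : nrm (a + b) ≤ nrm a + nrm b := by
  unfold nrm
  rw [← a.summable_norm.tsum_add b.summable_norm]
  exact (a + b).summable_norm.tsum_le_tsum (fun g => norm_add_le _ _)
    (a.summable_norm.add b.summable_norm)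

theorem nrm_mul_le (a b : L1 G) : nrm (a * b) ≤ nrm a * nrm b := by
  unfold nrm
  have h2 := summable_conv2_norm a b
  calc ∑' g, ‖(a * b) g‖ ≤ ∑' g, ∑' h, ‖a h * b (h⁻¹ * g)‖ := by
        refine (a * b).summable_norm.tsum_le_tsum (fun g => ?_) h2.prod_symm.prod
        exact norm_tsum_le_tsum_norm (summable_conv_fiber_norm a b g)
    _ = ∑' p : G × G, ‖a p.1 * b (p.1⁻¹ * p.2)‖ := by
        have h3 := h2.prod_symm.tsum_prod
        rw [← (Equiv.prodComm G G).tsum_eq (fun p : G × G => ‖a p.1 * b (p.1⁻¹ * p.2)‖)]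
        exact h3.symm
    _ = ∑' p : G × G, ‖a p.1‖ * ‖b p.2‖ := by
        rw [← (shear (G := G)).symm.tsum_eq]
        congr 1
        funext p
        simp [shear]
    _ = (∑' g, ‖a g‖) * ∑' g, ‖b g‖ :=
        (a.summable_norm.tsum_mul_tsum b.summable_norm
          (a.summable_norm.mul_of_nonneg b.summable_norm (fun _ => norm_nonneg _)
            (fun _ => norm_nonneg _))).symm

end L1

end Vale.Agent.Lib.P184
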