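import Mathlib
import Vale.Agent.Lib.P184.L1

/-!
# Bounded traces on rings with a submultiplicative size function

* `NormedTrace R`: a size function `N` (nonnegative, subadditive, submultiplicative) together with
  an additive map `τ : R → ℂ` with `τ (x * y) = τ (y * x)` and `‖τ x‖ ≤ c * N x`.
* `NormedTrace.eq_of_close`: two idempotents at distance `< 1` have the same trace.
* `NormedTrace.matrix`: the induced structure on matrix rings.
* `L1.pairTrace`: pairing against a bounded class function gives such a structure on `L1 G`.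
-/

open scoped BigOperators

set_option linter.unusedSectionVars false

namespace Vale.Agent.Lib.P184

/-- A size function and a bounded trace on a ring. -/
structure NormedTrace (R : Type*) [Ring R] where
  /-- the size function -/
  N : R → ℝ
  /-- the trace -/
  τ : R →+ ℂ
  /-- the bound constant -/
  c : ℝ
  c_nonneg : 0 ≤ c
  N_nonneg : ∀ x, 0 ≤ N x
  N_zero : N 0 = 0
  N_add : ∀ x y, N (x + y) ≤ N x + N y
  N_mul : ∀ x y, N (x * y) ≤ N x * N y
  τ_comm : ∀ x y, τ (x * y) = τ (y * x)
  τ_le : ∀ x, ‖τ x‖ ≤ c * N x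

namespace NormedTrace

variable {R : Type*} [Ring R] (T : NormedTrace R)

theorem N_sum_le {ι : Type*} (s : Finset ι) (f : ι → R) : T.N (∑ i ∈ s, f i) ≤ ∑ i ∈ s, T.N (f i) := by
  classical
  induction s using Finset.induction_on with
  | empty => simp [T.N_zero]
  | insert a s ha ih =>
    rw [Finset.sum_insert ha, Finset.sum_insert ha]
    exact (T.N_add _ _).trans (add_le_add_right ih _)

/-- the trace of `A * (A * A) ^ k` for `A = e - f` a difference of idempotents -/
theorem tau_diff_pow (e f : R) (he : e * e = e) (hf : f * f = f) (k : ℕ) :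
    T.τ ((e - f) * ((e - f) * (e - f)) ^ k) = T.τ e - T.τ f := by
  have hS' : (e - f) * (e - f) = e - e * f - f * e + f := by
    calc (e - f) * (e - f) = e * e - e * f - f * e + f * f := by noncomm_ring
      _ = e - e * f - f * e + f := by rw [he, hf]
  have hSe : (e - f) * (e - f) * e = e * ((e - f) * (e - f)) := by
    rw [hS']
    have l : (e - e * f - f * e + f) * e = e - e * f * e := by
      calc (e - e * f - f * e + f) * e = e * e - e * f * e - f * (e * e) + f * e := by noncomm_ring
        _ = e - e * f * e := by rw [he]; noncomm_ring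
    have r : e * (e - e * f - f * e + f) = e - e * f * e := by
      calc e * (e - e * f - f * e + f) = e * e - (e * e) * f - e * f * e + e * f := by noncomm_ring
        _ = e - e * f * e := by rw [he]; noncomm_ring
    rw [l, r]
  have hSf : (e - f) * (e - f) * f = f * ((e - f) * (e - f)) := by
    rw [hS']
    have l : (e - e * f - f * e + f) * f = f - f * e * f := by
      calc (e - e * f - f * e + f) * f = e * f - e * (f * f) - f * e * f + f * f := by noncomm_ring
        _ = f - f * e * f := by rw [hf]; noncomm_ring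
    have r : f * (e - e * f - f * e + f) = f - f * e * f := by
      calc f * (e - e * f - f * e + f) = f * e - f * e * f - (f * f) * e + f * f := by noncomm_ring
        _ = f - f * e * f := by rw [hf]; noncomm_ring
    rw [l, r]
  have hAS : (e - f) * ((e - f) * (e - f)) = (e - f) - (e * f * e - f * e * f) := by
    rw [hS']
    calc (e - f) * (e - e * f - f * e + f)
        = e * e - (e * e) * f - e * f * e + e * f - f * e + f * e * f + (f * f) * e - f * f := by
          noncomm_ring
      _ = (e - f) - (e * f * e - f * e * f) := by rw [he, hf]; noncomm_ring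
  set S := (e - f) * (e - f) with hS
  have cSe : Commute S e := hSe
  have cSf : Commute S f := hSf
  have h1 : ∀ k : ℕ, T.τ (e * f * e * S ^ k) = T.τ (f * e * S ^ k) := by
    intro k
    calc T.τ (e * f * e * S ^ k) = T.τ (e * (f * e * S ^ k)) := by simp only [mul_assoc]
      _ = T.τ (f * e * S ^ k * e) := T.τ_comm _ _
      _ = T.τ (f * e * (S ^ k * e)) := by rw [mul_assoc]
      _ = T.τ (f * e * (e * S ^ k)) := by rw [(cSe.pow_left k).eq]
      _ = T.τ (f * (e * e) * S ^ k) := by simp only [mul_assoc]
      _ = T.τ (f * e * S ^ k) := by rw [he]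
  have h2 : ∀ k : ℕ, T.τ (f * e * f * S ^ k) = T.τ (f * e * S ^ k) := by
    intro k
    calc T.τ (f * e * f * S ^ k) = T.τ (f * (e * f * S ^ k)) := by simp only [mul_assoc]
      _ = T.τ (e * f * S ^ k * f) := T.τ_comm _ _
      _ = T.τ (e * f * (S ^ k * f)) := by rw [mul_assoc]
      _ = T.τ (e * f * (f * S ^ k)) := by rw [(cSf.pow_left k).eq]
      _ = T.τ (e * (f * f) * S ^ k) := by simp only [mul_assoc]
      _ = T.τ (e * (f * S ^ k)) := by rw [hf, mul_assoc]
      _ = T.τ (f * S ^ k * e) := T.τ_comm _ _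
      _ = T.τ (f * (S ^ k * e)) := by rw [mul_assoc]
      _ = T.τ (f * (e * S ^ k)) := by rw [(cSe.pow_left k).eq]
      _ = T.τ (f * e * S ^ k) := by rw [mul_assoc]
  induction k with
  | zero => simp
  | succ k ih =>
    have h3 : (e - f) * S ^ (k + 1)
        = (e - f) * S ^ k - e * f * e * S ^ k + f * e * f * S ^ k := by
      rw [pow_succ', ← mul_assoc, hAS]
      noncomm_ring
    rw [h3, map_add, map_sub, h1, h2, ih]
    abel

/-- Idempotents at distance less than one have the same trace. -/
theorem eq_of_close (e f : R) (he : e * e = e) (hf : f * f = f) (hclose : T.N (e - f) < 1) :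
    T.τ e = T.τ f := by
  have hpow : ∀ k : ℕ, T.N ((e - f) * ((e - f) * (e - f)) ^ k) ≤ T.N (e - f) ^ (2 * k + 1) := by
    intro k
    induction k with
    | zero => simp
    | succ k ih =>
      have h1 : (e - f) * ((e - f) * (e - f)) ^ (k + 1)
          = (e - f) * ((e - f) * (e - f)) ^ k * ((e - f) * (e - f)) := by
        rw [pow_succ, mul_assoc]
      rw [h1]
      calc T.N ((e - f) * ((e - f) * (e - f)) ^ k * ((e - f) * (e - f)))
          ≤ T.N ((e - f) * ((e - f) * (e - f)) ^ k) * T.N ((e - f) * (e - f)) := T.N_mul _ _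
        _ ≤ T.N (e - f) ^ (2 * k + 1) * (T.N (e - f) * T.N (e - f)) :=
            mul_le_mul ih (T.N_mul _ _) (T.N_nonneg _) (pow_nonneg (T.N_nonneg _) _)
        _ = T.N (e - f) ^ (2 * (k + 1) + 1) := by ring
  have hbound : ∀ k : ℕ, ‖T.τ e - T.τ f‖ ≤ |T.c| * T.N (e - f) ^ (2 * k + 1) := by
    intro k
    rw [← T.tau_diff_pow e f he hf k]
    calc ‖T.τ ((e - f) * ((e - f) * (e - f)) ^ k)‖
        ≤ T.c * T.N ((e - f) * ((e - f) * (e - f)) ^ k) := T.τ_le _
      _ ≤ |T.c| * T.N ((e - f) * ((e - f) * (e - f)) ^ k) :=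
          mul_le_mul_of_nonneg_right (le_abs_self _) (T.N_nonneg _)
      _ ≤ |T.c| * T.N (e - f) ^ (2 * k + 1) :=
          mul_le_mul_of_nonneg_left (hpow k) (abs_nonneg _)
  have hlim : Filter.Tendsto (fun k : ℕ => |T.c| * T.N (e - f) ^ (2 * k + 1)) Filter.atTop
      (nhds 0) := by
    have h0 : Filter.Tendsto (fun k : ℕ => T.N (e - f) ^ k) Filter.atTop (nhds 0) :=
      tendsto_pow_atTop_nhds_zero_of_lt_one (T.N_nonneg _) hclose
    have h1 : Filter.Tendsto (fun k : ℕ => 2 * k + 1) Filter.atTop Filter.atTop :=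
      Filter.tendsto_atTop_mono (fun k => (show k ≤ 2 * k + 1 by omega)) Filter.tendsto_id
    have h2 := (h0.comp h1).const_mul |T.c|
    simpa using h2
  have hle : ‖T.τ e - T.τ f‖ ≤ 0 := ge_of_tendsto' hlim hbound
  have : T.τ e - T.τ f = 0 := by simpa using hle
  exact sub_eq_zero.1 this

/-- The induced size function and trace on a matrix ring. -/
noncomputable def matrix (n : Type*) [Fintype n] [DecidableEq n] : NormedTrace (Matrix n n R) where
  N A := ∑ i, ∑ j, T.N (A i j)
  τ :=
    { toFun := fun A => ∑ i, T.τ (A i i)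
      map_zero' := by simp
      map_add' := by
        intro A B
        simp [Finset.sum_add_distrib] }
  c := T.c
  c_nonneg := T.c_nonneg
  N_nonneg A := Finset.sum_nonneg fun i _ => Finset.sum_nonneg fun j _ => T.N_nonneg _
  N_zero := by simp [T.N_zero]
  N_add A B := by
    rw [← Finset.sum_add_distrib]
    refine Finset.sum_le_sum fun i _ => ?_
    rw [← Finset.sum_add_distrib]
    exact Finset.sum_le_sum fun j _ => T.N_add _ _
  N_mul A B := by
    have h1 : ∀ i j, T.N ((A * B) i j) ≤ ∑ k, T.N (A i k) * T.N (B k j) := by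
      intro i j
      rw [Matrix.mul_apply]
      exact (T.N_sum_le _ _).trans (Finset.sum_le_sum fun k _ => T.N_mul _ _)
    calc ∑ i, ∑ j, T.N ((A * B) i j) ≤ ∑ i, ∑ j, ∑ k, T.N (A i k) * T.N (B k j) :=
          Finset.sum_le_sum fun i _ => Finset.sum_le_sum fun j _ => h1 i j
      _ = ∑ i, ∑ k, T.N (A i k) * ∑ j, T.N (B k j) := by
          refine Finset.sum_congr rfl fun i _ => ?_
          rw [Finset.sum_comm]
          refine Finset.sum_congr rfl fun k _ => ?_
          rw [Finset.mul_sum]
      _ ≤ ∑ i, ∑ k, T.N (A i k) * ∑ l, ∑ j, T.N (B l j) := by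
          refine Finset.sum_le_sum fun i _ => Finset.sum_le_sum fun k _ => ?_
          refine mul_le_mul_of_nonneg_left ?_ (T.N_nonneg _)
          exact Finset.single_le_sum (f := fun l => ∑ j, T.N (B l j))
            (fun l _ => Finset.sum_nonneg fun j _ => T.N_nonneg _) (Finset.mem_univ k)
      _ = (∑ i, ∑ j, T.N (A i j)) * ∑ i, ∑ j, T.N (B i j) := by
          rw [Finset.sum_mul]
          refine Finset.sum_congr rfl fun i _ => ?_
          rw [Finset.sum_mul]
  τ_comm A B := by
    show ∑ i, T.τ ((A * B) i i) = ∑ i, T.τ ((B * A) i i)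
    simp only [Matrix.mul_apply, map_sum]
    rw [Finset.sum_comm]
    refine Finset.sum_congr rfl fun i _ => Finset.sum_congr rfl fun j _ => ?_
    exact T.τ_comm _ _
  τ_le A := by
    show ‖∑ i, T.τ (A i i)‖ ≤ T.c * ∑ i, ∑ j, T.N (A i j)
    calc ‖∑ i, T.τ (A i i)‖ ≤ ∑ i, ‖T.τ (A i i)‖ := norm_sum_le _ _
      _ ≤ ∑ i, T.c * T.N (A i i) := Finset.sum_le_sum fun i _ => T.τ_le _
      _ ≤ ∑ i, T.c * ∑ j, T.N (A i j) := by
          refine Finset.sum_le_sum fun i _ => ?_
          refine mul_le_mul_of_nonneg_left ?_ T.c_nonneg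
          exact Finset.single_le_sum (f := fun j => T.N (A i j)) (fun j _ => T.N_nonneg _)
            (Finset.mem_univ i)
      _ = T.c * ∑ i, ∑ j, T.N (A i j) := by rw [Finset.mul_sum]

end NormedTrace

end Vale.Agent.Lib.P184
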