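import Mathlib
import Vale.Agent.Lib.P184.L1
import Vale.Agent.Lib.P184.Trace

/-!
# Pairing `L1 G` against bounded class functions
-/

open scoped BigOperators

set_option linter.unusedSectionVars false

namespace Vale.Agent.Lib.P184

variable {G : Type*} [Group G]

namespace L1

/-- evaluation at a point, as an additive map -/
def evalHom (g : G) : L1 G →+ ℂ where
  toFun a := a g
  map_zero' := rfl
  map_add' _ _ := rfl

theorem sum_apply {ι : Type*} (s : Finset ι) (f : ι → L1 G) (g : G) :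
    (∑ i ∈ s, f i) g = ∑ i ∈ s, f i g :=
  map_sum (evalHom g) f s

/-- pairing of a function with an element of `L1 G` -/
noncomputable def pair (φ : G → ℂ) (a : L1 G) : ℂ := ∑' g, φ g * a g

theorem summable_pair_norm (φ : G → ℂ) (K : ℝ) (hφ : ∀ g, ‖φ g‖ ≤ K) (a : L1 G) :
    Summable (fun g => ‖φ g * a g‖) := by
  refine Summable.of_nonneg_of_le (fun _ => norm_nonneg _) (fun g => ?_)
    (a.summable_norm.mul_left K)
  rw [norm_mul]
  exact mul_le_mul_of_nonneg_right (hφ g) (norm_nonneg _)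

theorem summable_pair (φ : G → ℂ) (K : ℝ) (hφ : ∀ g, ‖φ g‖ ≤ K) (a : L1 G) :
    Summable (fun g => φ g * a g) :=
  (summable_pair_norm φ K hφ a).of_norm

theorem pair_add (φ : G → ℂ) (K : ℝ) (hφ : ∀ g, ‖φ g‖ ≤ K) (a b : L1 G) :
    pair φ (a + b) = pair φ a + pair φ b := by
  unfold pair
  rw [← (summable_pair φ K hφ a).tsum_add (summable_pair φ K hφ b)]
  congr 1
  funext g
  rw [add_apply, mul_add]

theorem norm_pair_le (φ : G → ℂ) (K : ℝ) (hφ : ∀ g, ‖φ g‖ ≤ K) (a : L1 G) :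
    ‖pair φ a‖ ≤ K * nrm a := by
  unfold pair nrm
  calc ‖∑' g, φ g * a g‖ ≤ ∑' g, ‖φ g * a g‖ :=
        norm_tsum_le_tsum_norm (summable_pair_norm φ K hφ a)
    _ ≤ ∑' g, K * ‖a g‖ := by
        refine (summable_pair_norm φ K hφ a).tsum_le_tsum (fun g => ?_) (a.summable_norm.mul_left K)
        rw [norm_mul]
        exact mul_le_mul_of_nonneg_right (hφ g) (norm_nonneg _)
    _ = K * ∑' g, ‖a g‖ := tsum_mul_left

/-- the equivalence `(h, k) ↦ (h * k, h)` -/
def mulEquiv : G × G ≃ G × G where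
  toFun p := (p.1 * p.2, p.1)
  invFun q := (q.2, q.2⁻¹ * q.1)
  left_inv p := by simp
  right_inv q := by simp

theorem pair_mul (φ : G → ℂ) (K : ℝ) (hφ : ∀ g, ‖φ g‖ ≤ K) (a b : L1 G) :
    pair φ (a * b) = ∑' p : G × G, φ (p.1 * p.2) * (a p.1 * b p.2) := by
  have hV : Summable (fun p : G × G => φ (p.1 * p.2) * (a p.1 * b p.2)) := by
    refine Summable.of_norm_bounded
      ((Summable.mul_norm a.summable_norm b.summable_norm).mul_left K) (fun p => ?_)
    rw [norm_mul]
    exact mul_le_mul_of_nonneg_right (hφ _) (norm_nonneg _)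
  have hW : Summable (fun q : G × G => φ q.1 * (a q.2 * b (q.2⁻¹ * q.1))) := by
    have := (mulEquiv (G := G)).symm.summable_iff.mpr hV
    refine this.congr (fun q => ?_)
    simp [mulEquiv]
  unfold pair
  calc ∑' g, φ g * (a * b) g = ∑' g, ∑' h, φ g * (a h * b (h⁻¹ * g)) := by
        congr 1
        funext g
        rw [mul_apply, tsum_mul_left]
    _ = ∑' q : G × G, φ q.1 * (a q.2 * b (q.2⁻¹ * q.1)) := hW.tsum_prod.symm
    _ = ∑' p : G × G, φ (p.1 * p.2) * (a p.1 * b p.2) := by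
        rw [← (mulEquiv (G := G)).tsum_eq]
        congr 1
        funext p
        simp [mulEquiv]

theorem pair_mul_comm (φ : G → ℂ) (K : ℝ) (hφ : ∀ g, ‖φ g‖ ≤ K)
    (hφc : ∀ x y, φ (x * y) = φ (y * x)) (a b : L1 G) :
    pair φ (a * b) = pair φ (b * a) := by
  rw [pair_mul φ K hφ, pair_mul φ K hφ]
  rw [← (Equiv.prodComm G G).tsum_eq (fun p : G × G => φ (p.1 * p.2) * (b p.1 * a p.2))]
  congr 1
  funext p
  simp only [Equiv.prodComm_apply, Prod.fst_swap, Prod.snd_swap]
  rw [hφc p.2 p.1, mul_comm (b p.2)]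

theorem nrm_zero : nrm (0 : L1 G) = 0 := by
  unfold nrm
  simp

/-- the bounded trace on `L1 G` given by a bounded class function -/
noncomputable def pairTrace (φ : G → ℂ) (K : ℝ) (hK : 0 ≤ K) (hφ : ∀ g, ‖φ g‖ ≤ K)
    (hφc : ∀ x y, φ (x * y) = φ (y * x)) : NormedTrace (L1 G) where
  N := nrm
  τ :=
    { toFun := pair φ
      map_zero' := by simp [pair]
      map_add' := pair_add φ K hφ }
  c := K
  c_nonneg := hK
  N_nonneg := nrm_nonneg
  N_zero := nrm_zero
  N_add := nrm_add_le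
  N_mul := nrm_mul_le
  τ_comm := pair_mul_comm φ K hφ hφc
  τ_le := norm_pair_le φ K hφ

end L1

end Vale.Agent.Lib.P184
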