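import Mathlib
import Vale.Agent.Lib.P184.L1
import Vale.Agent.Lib.P184.Trace
import Vale.Agent.Lib.P184.Pair

/-!
# Twisting by a bounded matrix representation

For a multiplicative map `M : G → Matrix κ κ ℂ` with entries bounded by one, the map
`a ↦ (g ↦ M g α β * a g)` is a ring homomorphism `L1 G →+* Matrix κ κ (L1 G)`.
-/

open scoped BigOperators

set_option linter.unusedSectionVars false

namespace Vale.Agent.Lib.P184

variable {G : Type*} [Group G]

namespace L1

/-- pointwise multiplication by a function bounded by one -/
def twist (m : G → ℂ) (hm : ∀ g, ‖m g‖ ≤ 1) (a : L1 G) : L1 G :=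
  ⟨fun g => m g * a g, summable_pair_norm m 1 hm a⟩

@[simp] theorem twist_apply (m : G → ℂ) (hm : ∀ g, ‖m g‖ ≤ 1) (a : L1 G) (g : G) :
    twist m hm a g = m g * a g := rfl

variable {κ : Type*} [Fintype κ] [DecidableEq κ]

/-- the twist by a bounded matrix representation, as a ring homomorphism -/
noncomputable def twistHom (M : G → Matrix κ κ ℂ) (hM_one : M 1 = 1)
    (hM_mul : ∀ x y, M (x * y) = M x * M y) (hM_bd : ∀ g α β, ‖M g α β‖ ≤ 1) :
    L1 G →+* Matrix κ κ (L1 G) where
  toFun a := Matrix.of fun α β => twist (fun g => M g α β) (fun g => hM_bd g α β) a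
  map_one' := by
    ext α β g
    rw [Matrix.of_apply, twist_apply, one_apply, Matrix.one_apply]
    by_cases hg : g = 1
    · subst hg
      rw [hM_one, Matrix.one_apply]
      by_cases hαβ : α = β
      · simp [hαβ, one_apply]
      · simp [hαβ]
    · by_cases hαβ : α = β
      · simp [hαβ, one_apply, hg]
      · simp [hαβ, hg]
  map_mul' a b := by
    ext α β g
    rw [Matrix.of_apply, twist_apply, Matrix.mul_apply, sum_apply, mul_apply]
    have h1 : ∀ γ, ((Matrix.of fun α β => twist (fun g => M g α β) (fun g => hM_bd g α β) a) α γ *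
        (Matrix.of fun α β => twist (fun g => M g α β) (fun g => hM_bd g α β) b) γ β) g
        = ∑' h, (M h α γ * M (h⁻¹ * g) γ β) * (a h * b (h⁻¹ * g)) := by
      intro γ
      rw [mul_apply]
      congr 1
      funext h
      simp only [Matrix.of_apply, twist_apply]
      ring
    have hs : ∀ γ, Summable (fun h => (M h α γ * M (h⁻¹ * g) γ β) * (a h * b (h⁻¹ * g))) := by
      intro γ
      have := summable_conv_fiber
        ((Matrix.of fun α β => twist (fun g => M g α β) (fun g => hM_bd g α β) a) α γ)
        ((Matrix.of fun α β => twist (fun g => M g α β) (fun g => hM_bd g α β) b) γ β) g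
      refine this.congr (fun h => ?_)
      simp only [Matrix.of_apply, twist_apply]
      ring
    simp only [h1]
    rw [← Summable.tsum_finsetSum (fun γ _ => hs γ), ← tsum_mul_left]
    congr 1
    funext h
    rw [← Finset.sum_mul]
    congr 1
    have : M g = M h * M (h⁻¹ * g) := by rw [← hM_mul, mul_inv_cancel_left]
    rw [this, Matrix.mul_apply]
  map_zero' := by
    ext α β g
    simp
  map_add' a b := by
    ext α β g
    simp [mul_add]

end L1

end Vale.Agent.Lib.P184
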