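import Mathlib
import Vale.Agent.Lib.P184.L1
import Vale.Agent.Lib.P184.Trace
import Vale.Agent.Lib.P184.Pair
import Vale.Agent.Lib.P184.Twist

/-!
# Constancy of the twisted trace along a continuous family of bounded representations
-/

open scoped BigOperators Topology

set_option linter.unusedSectionVars false

namespace Vale.Agent.Lib.P184

variable {G : Type*} [Group G]

open Classical in
/-- indicator of the conjugacy class of `g₀`, with complex values -/
noncomputable def classInd (g₀ : G) (g : G) : ℂ := if IsConj g₀ g then 1 else 0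

theorem classInd_norm_le (g₀ g : G) : ‖classInd g₀ g‖ ≤ 1 := by
  unfold classInd
  split_ifs <;> simp

theorem classInd_comm (g₀ x y : G) : classInd g₀ (x * y) = classInd g₀ (y * x) := by
  have h : IsConj (x * y) (y * x) := isConj_iff.2 ⟨x⁻¹, by group⟩
  unfold classInd
  by_cases h1 : IsConj g₀ (x * y)
  · rw [if_pos h1, if_pos (h1.trans h)]
  · have h2 : ¬ IsConj g₀ (y * x) := fun h2 => h1 (h2.trans h.symm)
    rw [if_neg h1, if_neg h2]

/-- the trace on `L1 G` given by summing over the conjugacy class of `g₀` -/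
noncomputable def classTrace (g₀ : G) : NormedTrace (L1 G) :=
  L1.pairTrace (classInd g₀) 1 zero_le_one (classInd_norm_le g₀) (classInd_comm g₀)

theorem pair_classInd (g₀ : G) (f : G → ℂ) :
    ∑' g, classInd g₀ g * f g = ∑' g : {g // IsConj g₀ g}, f g := by
  have h := tsum_subtype {g | IsConj g₀ g} f
  rw [show (∑' g : {g // IsConj g₀ g}, f g) = ∑' g : ({g | IsConj g₀ g} : Set G), f g from rfl, h]
  congr 1
  funext g
  unfold classInd
  by_cases hg : IsConj g₀ g
  · rw [if_pos hg, one_mul, Set.indicator_of_mem (show g ∈ {g | IsConj g₀ g} from hg)]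
  · rw [if_neg hg, zero_mul, Set.indicator_of_notMem (show g ∉ {g | IsConj g₀ g} from hg)]

variable {κ : Type*} [Fintype κ] [DecidableEq κ] {n : Type*} [Fintype n] [DecidableEq n]

theorem trace_conj_eq (M : G → Matrix κ κ ℂ) (hM_one : M 1 = 1)
    (hM_mul : ∀ x y, M (x * y) = M x * M y) {g₀ g : G} (h : IsConj g₀ g) :
    (M g).trace = (M g₀).trace := by
  obtain ⟨c, rfl⟩ := isConj_iff.1 h
  rw [hM_mul, hM_mul, Matrix.trace_mul_comm, ← Matrix.mul_assoc, ← hM_mul, inv_mul_cancel, hM_one,
    Matrix.one_mul]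

/-- the twist of a matrix over `L1 G` by a bounded matrix representation -/
noncomputable def twisted (E : Matrix n n (L1 G)) (M : G → Matrix κ κ ℂ) (hM_one : M 1 = 1)
    (hM_mul : ∀ x y, M (x * y) = M x * M y) (hM_bd : ∀ g α β, ‖M g α β‖ ≤ 1) :
    Matrix n n (Matrix κ κ (L1 G)) :=
  (L1.twistHom M hM_one hM_mul hM_bd).mapMatrix E

theorem twisted_apply (E : Matrix n n (L1 G)) (M : G → Matrix κ κ ℂ) (hM_one : M 1 = 1)
    (hM_mul : ∀ x y, M (x * y) = M x * M y) (hM_bd : ∀ g α β, ‖M g α β‖ ≤ 1)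
    (i j : n) (α β : κ) (g : G) :
    twisted E M hM_one hM_mul hM_bd i j α β g = M g α β * E i j g := rfl

theorem twisted_idem (E : Matrix n n (L1 G)) (hE : E * E = E) (M : G → Matrix κ κ ℂ)
    (hM_one : M 1 = 1) (hM_mul : ∀ x y, M (x * y) = M x * M y)
    (hM_bd : ∀ g α β, ‖M g α β‖ ≤ 1) :
    twisted E M hM_one hM_mul hM_bd * twisted E M hM_one hM_mul hM_bd
      = twisted E M hM_one hM_mul hM_bd := by
  unfold twisted
  rw [← map_mul, hE]

/-- the size function and trace on matrices of matrices over `L1 G` -/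
noncomputable def T2 (g₀ : G) (κ n : Type*) [Fintype κ] [DecidableEq κ] [Fintype n]
    [DecidableEq n] : NormedTrace (Matrix n n (Matrix κ κ (L1 G))) :=
  ((classTrace g₀).matrix κ).matrix n

theorem T2_N (g₀ : G) (A : Matrix n n (Matrix κ κ (L1 G))) :
    (T2 g₀ κ n).N A = ∑ i, ∑ j, ∑ α, ∑ β, L1.nrm (A i j α β) := rfl

theorem T2_tau (g₀ : G) (A : Matrix n n (Matrix κ κ (L1 G))) :
    (T2 g₀ κ n).τ A = ∑ i, ∑ α, L1.pair (classInd g₀) (A i i α α) := rfl

theorem tau_twisted (g₀ : G) (E : Matrix n n (L1 G)) (M : G → Matrix κ κ ℂ) (hM_one : M 1 = 1)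
    (hM_mul : ∀ x y, M (x * y) = M x * M y) (hM_bd : ∀ g α β, ‖M g α β‖ ≤ 1) :
    (T2 g₀ κ n).τ (twisted E M hM_one hM_mul hM_bd)
      = (M g₀).trace * ∑' g : {g // IsConj g₀ g}, ∑ i, E i i g := by
  rw [T2_tau]
  unfold L1.pair
  simp only [twisted_apply]
  have hs : ∀ (i : n) (α : κ), Summable (fun g => classInd g₀ g * (M g α α * E i i g)) :=
    fun i α => L1.summable_pair (classInd g₀) 1 (classInd_norm_le g₀)
      (L1.twist (fun g => M g α α) (fun g => hM_bd g α α) (E i i))
  rw [← pair_classInd g₀ (fun g => ∑ i, E i i g), ← tsum_mul_left]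
  have hswap : ∑ i, ∑ α, ∑' g, classInd g₀ g * (M g α α * E i i g)
      = ∑' g, ∑ i, ∑ α, classInd g₀ g * (M g α α * E i i g) := by
    rw [Summable.tsum_finsetSum (fun i _ => summable_sum fun α _ => hs i α)]
    congr 1
    funext i
    rw [Summable.tsum_finsetSum (fun α _ => hs i α)]
  rw [hswap]
  congr 1
  funext g
  by_cases hg : IsConj g₀ g
  · have htr := trace_conj_eq M hM_one hM_mul hg
    rw [← htr]
    unfold classInd
    rw [if_pos hg]
    simp only [one_mul]
    rw [Matrix.trace, Finset.sum_mul_sum, Finset.sum_comm]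
    rfl
  · unfold classInd
    rw [if_neg hg]
    simp

theorem N_tendsto (g₀ : G) (E : Matrix n n (L1 G)) (M : ℝ → G → Matrix κ κ ℂ)
    (hM_one : ∀ t, M t 1 = 1) (hM_mul : ∀ t x y, M t (x * y) = M t x * M t y)
    (hM_bd : ∀ t g α β, ‖M t g α β‖ ≤ 1) (hM_cont : ∀ g α β, Continuous fun t => M t g α β)
    (s : ℝ) :
    Filter.Tendsto (fun t => (T2 g₀ κ n).N
      (twisted E (M t) (hM_one t) (hM_mul t) (hM_bd t)
        - twisted E (M s) (hM_one s) (hM_mul s) (hM_bd s))) (𝓝 s) (𝓝 0) := by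
  have hval : ∀ (t : ℝ) (i j : n) (α β : κ) (g : G),
      (twisted E (M t) (hM_one t) (hM_mul t) (hM_bd t)
        - twisted E (M s) (hM_one s) (hM_mul s) (hM_bd s)) i j α β g
      = M t g α β * E i j g - M s g α β * E i j g := by
    intro t i j α β g
    rw [Matrix.sub_apply, Matrix.sub_apply, L1.sub_apply, twisted_apply, twisted_apply]
  have key : ∀ (i j : n) (α β : κ), Filter.Tendsto (fun t => L1.nrm
      ((twisted E (M t) (hM_one t) (hM_mul t) (hM_bd t)
        - twisted E (M s) (hM_one s) (hM_mul s) (hM_bd s)) i j α β)) (𝓝 s) (𝓝 0) := by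
    intro i j α β
    have h0 : (∑' _ : G, (0 : ℝ)) = 0 := tsum_zero
    rw [← h0]
    unfold L1.nrm
    refine tendsto_tsum_of_dominated_convergence (bound := fun g => 2 * ‖E i j g‖)
      ((E i j).summable_norm.mul_left 2) ?_ ?_
    · intro g
      simp only [hval]
      have hc : Continuous (fun t => ‖M t g α β * E i j g - M s g α β * E i j g‖) := by
        have := hM_cont g α β
        fun_prop
      have := hc.tendsto s
      simpa using this
    · refine Filter.Eventually.of_forall fun t g => ?_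
      rw [hval, norm_norm]
      calc ‖M t g α β * E i j g - M s g α β * E i j g‖
          ≤ ‖M t g α β * E i j g‖ + ‖M s g α β * E i j g‖ := norm_sub_le _ _
        _ ≤ 1 * ‖E i j g‖ + 1 * ‖E i j g‖ := by
            rw [norm_mul, norm_mul]
            exact add_le_add (mul_le_mul_of_nonneg_right (hM_bd t g α β) (norm_nonneg _))
              (mul_le_mul_of_nonneg_right (hM_bd s g α β) (norm_nonneg _))
        _ = 2 * ‖E i j g‖ := by ring
  have hsum : Filter.Tendsto (fun t => ∑ i, ∑ j, ∑ α, ∑ β, L1.nrm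
      ((twisted E (M t) (hM_one t) (hM_mul t) (hM_bd t)
        - twisted E (M s) (hM_one s) (hM_mul s) (hM_bd s)) i j α β)) (𝓝 s)
      (𝓝 (∑ _i : n, ∑ _j : n, ∑ _α : κ, ∑ _β : κ, (0 : ℝ))) :=
    tendsto_finsetSum _ fun i _ => tendsto_finsetSum _ fun j _ =>
      tendsto_finsetSum _ fun α _ => tendsto_finsetSum _ fun β _ => key i j α β
  simpa [T2_N] using hsum

/-- Along a continuous family of bounded matrix representations `M t`, the product of the
character value at `g₀` with the trace of an idempotent at the class of `g₀` is constant. -/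
theorem trace_deform (g₀ : G) (E : Matrix n n (L1 G)) (hE : E * E = E)
    (M : ℝ → G → Matrix κ κ ℂ)
    (hM_one : ∀ t, M t 1 = 1) (hM_mul : ∀ t x y, M t (x * y) = M t x * M t y)
    (hM_bd : ∀ t g α β, ‖M t g α β‖ ≤ 1) (hM_cont : ∀ g α β, Continuous fun t => M t g α β)
    (t : ℝ) :
    (M t g₀).trace * ∑' g : {g // IsConj g₀ g}, ∑ i, E i i g
      = (M 0 g₀).trace * ∑' g : {g // IsConj g₀ g}, ∑ i, E i i g := by
  rw [← tau_twisted g₀ E (M t) (hM_one t) (hM_mul t) (hM_bd t),
    ← tau_twisted g₀ E (M 0) (hM_one 0) (hM_mul 0) (hM_bd 0)]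
  have hloc : IsLocallyConstant (fun t => (T2 g₀ κ n).τ
      (twisted E (M t) (hM_one t) (hM_mul t) (hM_bd t))) := by
    rw [IsLocallyConstant.iff_eventually_eq]
    intro s
    have h1 := N_tendsto g₀ E M hM_one hM_mul hM_bd hM_cont s
    have h2 : ∀ᶠ t in 𝓝 s, (T2 g₀ κ n).N
        (twisted E (M t) (hM_one t) (hM_mul t) (hM_bd t)
          - twisted E (M s) (hM_one s) (hM_mul s) (hM_bd s)) < 1 :=
      h1.eventually_lt_const zero_lt_one
    filter_upwards [h2] with t ht
    exact (T2 g₀ κ n).eq_of_close _ _ (twisted_idem E hE _ _ _ _) (twisted_idem E hE _ _ _ _) ht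
  exact hloc.apply_eq_of_preconnectedSpace t 0

end Vale.Agent.Lib.P184
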