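import Mathlib
import Vale.Agent.Lib.P184.Deform

/-!
# The family of induced unitary characters of a finite-index subgroup

For `H ≤ G` of finite index and an additive character `χ : H → ℝ`, the matrices
`indRep H χ t g` (indexed by `G ⧸ H`) form the representation induced from the character
`h ↦ exp (i t χ h)` of `H`.
-/

open scoped BigOperators Topology

set_option linter.unusedSectionVars false

namespace Vale.Agent.Lib.P184

variable {G : Type*} [Group G] (H : Subgroup G)

/-- the cocycle of the action on cosets with respect to the chosen representatives -/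
noncomputable def cocyc (g : G) (β : G ⧸ H) : H :=
  ⟨(g • β).out⁻¹ * g * β.out, by
    have h1 : ((g • β).out : G ⧸ H) = ((g * β.out : G) : G ⧸ H) := by
      rw [QuotientGroup.out_eq']
      conv_lhs => rw [← QuotientGroup.out_eq' β]
      rfl
    have h2 := QuotientGroup.eq.1 h1
    rwa [← mul_assoc] at h2⟩

theorem cocyc_mul (x y : G) (γ : G ⧸ H) :
    cocyc H (x * y) γ = cocyc H x (y • γ) * cocyc H y γ := by
  apply Subtype.ext
  simp only [cocyc, Subgroup.coe_mul, mul_smul]
  group

theorem cocyc_one (β : G ⧸ H) : cocyc H 1 β = 1 := by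
  apply Subtype.ext
  simp [cocyc]

open Classical in
/-- the induced representation matrices -/
noncomputable def indRep (χ : H → ℝ) (t : ℝ) (g : G) : Matrix (G ⧸ H) (G ⧸ H) ℂ :=
  Matrix.of fun α β =>
    if g • β = α then Complex.exp (((t * χ (cocyc H g β) : ℝ) : ℂ) * Complex.I) else 0

open Classical in
theorem indRep_apply (χ : H → ℝ) (t : ℝ) (g : G) (α β : G ⧸ H) :
    indRep H χ t g α β
      = if g • β = α then Complex.exp (((t * χ (cocyc H g β) : ℝ) : ℂ) * Complex.I) else 0 := by
  unfold indRep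
  rw [Matrix.of_apply]

theorem char_one (χ : H → ℝ) (hχ : ∀ x y : H, χ (x * y) = χ x + χ y) : χ 1 = 0 := by
  have := hχ 1 1
  rw [mul_one] at this
  linarith

theorem char_inv (χ : H → ℝ) (hχ : ∀ x y : H, χ (x * y) = χ x + χ y) (h : H) :
    χ h⁻¹ = -χ h := by
  have := hχ h⁻¹ h
  rw [inv_mul_cancel, char_one H χ hχ] at this
  linarith

open Classical in
theorem indRep_one [Fintype (G ⧸ H)] (χ : H → ℝ) (hχ : ∀ x y : H, χ (x * y) = χ x + χ y)
    (t : ℝ) : indRep H χ t 1 = 1 := by
  ext α β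
  rw [indRep_apply, Matrix.one_apply, one_smul, cocyc_one, char_one H χ hχ]
  by_cases h : β = α
  · rw [if_pos h, if_pos h.symm]
    simp
  · rw [if_neg h, if_neg (fun h' => h h'.symm)]

open Classical in
theorem indRep_mul [Fintype (G ⧸ H)] (χ : H → ℝ) (hχ : ∀ x y : H, χ (x * y) = χ x + χ y)
    (t : ℝ) (x y : G) : indRep H χ t (x * y) = indRep H χ t x * indRep H χ t y := by
  ext α γ
  rw [Matrix.mul_apply, Finset.sum_eq_single (y • γ)]
  · rw [indRep_apply, indRep_apply, indRep_apply, if_pos rfl, mul_smul]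
    by_cases h : x • y • γ = α
    · rw [if_pos h, if_pos h, ← Complex.exp_add, cocyc_mul, hχ]
      congr 1
      push_cast
      ring
    · rw [if_neg h, if_neg h, zero_mul]
  · intro β _ hβ
    rw [indRep_apply H χ t y, if_neg (fun h => hβ h.symm), mul_zero]
  · intro h
    exact absurd (Finset.mem_univ _) h

theorem indRep_norm_le (χ : H → ℝ) (t : ℝ) (g : G) (α β : G ⧸ H) :
    ‖indRep H χ t g α β‖ ≤ 1 := by
  rw [indRep_apply]
  split_ifs
  · rw [Complex.norm_exp_ofReal_mul_I]
  · simp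

theorem indRep_cont (χ : H → ℝ) (g : G) (α β : G ⧸ H) :
    Continuous fun t => indRep H χ t g α β := by
  simp only [indRep_apply]
  by_cases h : g • β = α
  · simp only [if_pos h]
    fun_prop
  · simp only [if_neg h]
    exact continuous_const

open Classical in
theorem indRep_re (χ : H → ℝ) (t : ℝ) (g : G) (β : G ⧸ H) :
    (indRep H χ t g β β).re = if g • β = β then Real.cos (t * χ (cocyc H g β)) else 0 := by
  rw [indRep_apply]
  split_ifs
  · rw [Complex.exp_ofReal_mul_I_re]
  · simp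

theorem smul_mk_one (g₀ : H) : (g₀ : G) • (QuotientGroup.mk 1 : G ⧸ H) = QuotientGroup.mk 1 := by
  rw [MulAction.Quotient.smul_mk, QuotientGroup.eq]
  simp

theorem char_cocyc_mk_one (χ : H → ℝ) (hχ : ∀ x y : H, χ (x * y) = χ x + χ y) (g₀ : H) :
    χ (cocyc H (g₀ : G) (QuotientGroup.mk 1 : G ⧸ H)) = χ g₀ := by
  have hout : ((QuotientGroup.mk 1 : G ⧸ H).out : G) ∈ H := by
    have h1 : ((QuotientGroup.mk 1 : G ⧸ H).out : G ⧸ H) = ((1 : G) : G ⧸ H) :=
      QuotientGroup.out_eq' _
    have h2 := QuotientGroup.eq.1 h1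
    simpa using h2
  have hc : cocyc H (g₀ : G) (QuotientGroup.mk 1 : G ⧸ H)
      = (⟨_, hout⟩ : H)⁻¹ * g₀ * ⟨_, hout⟩ := by
    apply Subtype.ext
    simp only [cocyc, Subgroup.coe_mul, Subgroup.coe_inv]
    rw [smul_mk_one]
  rw [hc, hχ, hχ, char_inv H χ hχ]
  ring

open Classical in
theorem indRep_trace_re_lt [Fintype (G ⧸ H)] (χ : H → ℝ)
    (hχ : ∀ x y : H, χ (x * y) = χ x + χ y) (g₀ : H) (hg₀ : χ g₀ ≠ 0) :
    ((indRep H χ (Real.pi / χ g₀) (g₀ : G)).trace).re < ((indRep H χ 0 (g₀ : G)).trace).re := by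
  rw [Matrix.trace, Matrix.trace, Complex.re_sum, Complex.re_sum]
  simp only [Matrix.diag_apply, indRep_re]
  refine Finset.sum_lt_sum (fun β _ => ?_) ⟨QuotientGroup.mk 1, Finset.mem_univ _, ?_⟩
  · split_ifs
    · simp [Real.cos_le_one]
    · exact le_refl _
  · rw [if_pos (smul_mk_one H g₀), if_pos (smul_mk_one H g₀), char_cocyc_mk_one H χ hχ g₀,
      div_mul_cancel₀ _ hg₀, Real.cos_pi]
    simp

end Vale.Agent.Lib.P184
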