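import Mathlib
import Vale.Agent.Lib.P184.Deform
import Vale.Agent.Lib.P184.Induced

/-!
# Vanishing of the Hattori-Stallings trace of `ℓ¹` idempotent matrices at classes that are
visible in the real homology of a finite-index subgroup
-/

open scoped BigOperators Topology

set_option linter.unusedSectionVars false

namespace Vale.Agent.Lib.P184

variable {G : Type*} [Group G]

/-- the matrix over `L1 G` given by a family of absolutely summable functions -/
def ofFun {n : Type*} (e : n → n → G → ℂ) (hsum : ∀ i j, Summable (fun g => ‖e i j g‖)) :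
    Matrix n n (L1 G) :=
  Matrix.of fun i j => ⟨e i j, hsum i j⟩

theorem ofFun_apply {n : Type*} (e : n → n → G → ℂ)
    (hsum : ∀ i j, Summable (fun g => ‖e i j g‖)) (i j : n) (g : G) :
    ofFun e hsum i j g = e i j g := rfl

theorem ofFun_idem {n : Type*} [Fintype n] (e : n → n → G → ℂ)
    (hsum : ∀ i j, Summable (fun g => ‖e i j g‖))
    (hidem : ∀ i j g, ∑ k, ∑' h, e i k h * e k j (h⁻¹ * g) = e i j g) :
    ofFun e hsum * ofFun e hsum = ofFun e hsum := by
  ext i j g
  rw [Matrix.mul_apply, L1.sum_apply]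
  exact hidem i j g

theorem summable_class {n : Type*} [Fintype n] (e : n → n → G → ℂ)
    (hsum : ∀ i j, Summable (fun g => ‖e i j g‖)) (g₀ : G) :
    Summable (fun g : {g // IsConj g₀ g} => ∑ i, e i i g) :=
  summable_sum fun i _ => ((hsum i i).of_norm).subtype _

/-- Deformation form: along a continuous family of matrix representations with entries bounded
by one, the product of the character value at `g₀` and the trace at the class of `g₀` of an
idempotent `ℓ¹` matrix is constant. -/
theorem deform_concrete {n κ : Type*} [Fintype n] [DecidableEq n] [Fintype κ] [DecidableEq κ]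
    (e : n → n → G → ℂ) (hsum : ∀ i j, Summable (fun g => ‖e i j g‖))
    (hidem : ∀ i j g, ∑ k, ∑' h, e i k h * e k j (h⁻¹ * g) = e i j g)
    (M : ℝ → G → Matrix κ κ ℂ)
    (hM_one : ∀ t, M t 1 = 1) (hM_mul : ∀ t x y, M t (x * y) = M t x * M t y)
    (hM_bd : ∀ t g α β, ‖M t g α β‖ ≤ 1) (hM_cont : ∀ g α β, Continuous fun t => M t g α β)
    (g₀ : G) (t : ℝ) :
    (M t g₀).trace * ∑' g : {g // IsConj g₀ g}, ∑ i, e i i g
      = (M 0 g₀).trace * ∑' g : {g // IsConj g₀ g}, ∑ i, e i i g :=
  trace_deform g₀ (ofFun e hsum) (ofFun_idem e hsum hidem) M hM_one hM_mul hM_bd hM_cont t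

/-- Vanishing at classes meeting a finite-index subgroup `H` in an element on which some
additive character of `H` is nonzero. -/
theorem vanish_of_finiteIndex_char {n : Type*} [Fintype n] [DecidableEq n]
    (e : n → n → G → ℂ) (hsum : ∀ i j, Summable (fun g => ‖e i j g‖))
    (hidem : ∀ i j g, ∑ k, ∑' h, e i k h * e k j (h⁻¹ * g) = e i j g)
    (H : Subgroup G) [H.FiniteIndex] (χ : H → ℝ) (hχ : ∀ x y : H, χ (x * y) = χ x + χ y)
    (g₀ : H) (hg₀ : χ g₀ ≠ 0) :
    HasSum (fun g : {g // IsConj (g₀ : G) g} => ∑ i, e i i g) 0 := by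
  classical
  letI : Fintype (G ⧸ H) := H.fintypeQuotientOfFiniteIndex
  have hdef := deform_concrete e hsum hidem (indRep H χ) (indRep_one H χ hχ) (indRep_mul H χ hχ)
    (indRep_norm_le H χ) (indRep_cont H χ) (g₀ : G) (Real.pi / χ g₀)
  have hlt := indRep_trace_re_lt H χ hχ g₀ hg₀
  have hne : (indRep H χ (Real.pi / χ g₀) (g₀ : G)).trace ≠ (indRep H χ 0 (g₀ : G)).trace := by
    intro h
    rw [h] at hlt
    exact lt_irrefl _ hlt
  have hzero : ∑' g : {g // IsConj (g₀ : G) g}, ∑ i, e i i g = 0 := by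
    have h1 : ((indRep H χ (Real.pi / χ g₀) (g₀ : G)).trace - (indRep H χ 0 (g₀ : G)).trace)
        * ∑' g : {g // IsConj (g₀ : G) g}, ∑ i, e i i g = 0 := by
      rw [sub_mul, hdef, sub_self]
    rcases mul_eq_zero.1 h1 with h | h
    · exact absurd (sub_eq_zero.1 h) hne
    · exact h
  rw [← hzero]
  exact (summable_class e hsum (g₀ : G)).hasSum

/-- Vanishing at classes on which an additive character of `G` is nonzero. -/
theorem vanish_of_char {n : Type*} [Fintype n] [DecidableEq n]
    (e : n → n → G → ℂ) (hsum : ∀ i j, Summable (fun g => ‖e i j g‖))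
    (hidem : ∀ i j g, ∑ k, ∑' h, e i k h * e k j (h⁻¹ * g) = e i j g)
    (χ : G → ℝ) (hχ : ∀ x y : G, χ (x * y) = χ x + χ y)
    (g₀ : G) (hg₀ : χ g₀ ≠ 0) :
    HasSum (fun g : {g // IsConj g₀ g} => ∑ i, e i i g) 0 :=
  vanish_of_finiteIndex_char e hsum hidem (⊤ : Subgroup G) (fun h => χ h)
    (fun x y => hχ x y) ⟨g₀, Subgroup.mem_top g₀⟩ hg₀

end Vale.Agent.Lib.P184
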